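import Vale.Agent.P088.R2.H794.B.Spec2
import Mathlib.Analysis.Matrix.Order

/-!
# P088, row B_UN: uniformity in the constant metric

`rowBUN : RowBLC → RowBUN`, by compactness of the set of the constant metrics `G` with `CoG B G`.
-/

open MeasureTheory Set Filter Topology
open scoped ContDiff Matrix

noncomputable section

namespace Vale.Agent.P088.HY.H647

open Vale.Agent.P088.LR Vale.Agent.P088.LR.B Vale.Agent.P088.LR.CF Vale.Agent.P088.H639
open Vale.Agent.P088.HY.Bd

variable {n : ℕ}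

/-- The set of the constant metrics `G` with `CoG B G` is compact. -/
theorem isCompact_CoG (B : ℝ) (hB : 0 < B) :
    IsCompact {G : Matrix (Fin n) (Fin n) ℝ | CoG B G} := by
  have h1 : IsCompact {G : Matrix (Fin n) (Fin n) ℝ | ∀ i j, |G i j| ≤ B} := by
    have h : IsCompact (Set.pi univ fun _ : Fin n => Set.pi univ fun _ : Fin n =>
        Icc (-B) B) := isCompact_univ_pi fun _ => isCompact_univ_pi fun _ => isCompact_Icc
    have e : {G : Matrix (Fin n) (Fin n) ℝ | ∀ i j, |G i j| ≤ B} =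
        Set.pi univ fun _ : Fin n => Set.pi univ fun _ : Fin n => Icc (-B) B := by
      exact Set.ext fun G => ⟨fun h i _ j _ => abs_le.1 (h i j),
        fun h i j => abs_le.2 (h i (Set.mem_univ _) j (Set.mem_univ _))⟩
    rw [e]
    exact h
  have a1 : IsClosed {G : Matrix (Fin n) (Fin n) ℝ | ∀ i j, G j i = G i j} := by
    rw [Set.ofPred_forall]
    refine isClosed_iInter fun i => ?_
    rw [Set.ofPred_forall]
    exact isClosed_iInter fun j =>
      isClosed_eq (continuous_id.matrix_elem j i) (continuous_id.matrix_elem i j)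
  have a2 : IsClosed {G : Matrix (Fin n) (Fin n) ℝ | ∀ v : Fin n → ℝ, 0 ≤ v ⬝ᵥ (G *ᵥ v)} := by
    rw [Set.ofPred_forall]
    exact isClosed_iInter fun v => isClosed_le continuous_const
      (continuous_const.dotProduct (continuous_id.matrix_mulVec continuous_const))
  have a3 : IsClosed {G : Matrix (Fin n) (Fin n) ℝ | B⁻¹ ≤ G.det} :=
    isClosed_le continuous_const continuous_id.matrix_det
  have e : {G : Matrix (Fin n) (Fin n) ℝ | CoG B G} =
      {G : Matrix (Fin n) (Fin n) ℝ | ∀ i j, |G i j| ≤ B} ∩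
      ({G : Matrix (Fin n) (Fin n) ℝ | ∀ i j, G j i = G i j} ∩
      ({G : Matrix (Fin n) (Fin n) ℝ | ∀ v : Fin n → ℝ, 0 ≤ v ⬝ᵥ (G *ᵥ v)} ∩
      {G : Matrix (Fin n) (Fin n) ℝ | B⁻¹ ≤ G.det})) := by
    refine Set.ext fun G => ⟨fun h => ⟨h.2.1, fun i j => ?_, fun v => ?_, h.2.2⟩, fun h =>
      ⟨?_, h.1, h.2.2.2⟩⟩
    · simpa using h.1.isHermitian.apply i j
    · simpa using h.1.posSemidef.dotProduct_mulVec_nonneg v
    · have hs : G.PosSemidef := Matrix.PosSemidef.of_dotProduct_mulVec_nonneg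
        (Matrix.IsHermitian.ext fun i j => by simpa using h.2.1 i j)
        (fun v => by simpa using h.2.2.1 v)
      exact hs.posDef_iff_det_ne_zero.2 ((inv_pos.2 hB).trans_le h.2.2.2).ne'
  rw [e]
  exact h1.inter_right (a1.inter (a2.inter a3))

/-- A metric near `G'` is near `G` if `G'` is near `G`. -/
theorem NrC_move {k l : ℕ} {ε δ : ℝ} {G G' : Matrix (Fin n) (Fin n) ℝ} {g : MF n} (hg : SmM g)
    (h : NrC k δ G' g) (hl : l ≤ k) (hG : ∀ i j, |G' i j - G i j| ≤ ε - δ) : NrC l ε G g := by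
  intro i j m hm x
  have e : (fun x => g x i j - G i j) =
      (fun x => g x i j - G' i j) + fun _ => G' i j - G i j := by
    funext x
    simp only [Pi.add_apply]
    ring
  have c1 : ContDiff ℝ (m : ℕ∞) (fun x => g x i j - G' i j) :=
    ((hg i j).sub contDiff_const).of_le (by exact_mod_cast le_top)
  have c2 : ContDiff ℝ (m : ℕ∞) (fun _ : V n => G' i j - G i j) := contDiff_const
  rw [e, iteratedFDeriv_add_apply c1.contDiffAt c2.contDiffAt]
  have b1 := h i j m (hm.trans hl) x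
  have b2 : ‖iteratedFDeriv ℝ m (fun _ : V n => G' i j - G i j) x‖ ≤ ε - δ := by
    rcases Nat.eq_zero_or_pos m with rfl | hm'
    · rw [norm_iteratedFDeriv_zero, Real.norm_eq_abs]
      exact hG i j
    · rw [iteratedFDeriv_const_of_ne hm'.ne']
      simpa using (abs_nonneg _).trans (hG i j)
  calc _ ≤ _ := norm_add_le _ _
    _ ≤ δ + (ε - δ) := add_le_add b1 b2
    _ = ε := by ring

/-- (B_UN) from (B_LC). -/
theorem rowBUN : RowBLC → RowBUN := by
  intro hLC n hn ρ hρ B hB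
  have key : ∃ (k : ℕ) (ε : ℝ), 0 < ε ∧ ∀ G ∈ {G : Matrix (Fin n) (Fin n) ℝ | CoG B G},
      ∀ g₁ g₂ : MF n, SmM g₁ →
      SmM g₂ → (∀ x, (g₁ x).PosDef) → (∀ x, (g₂ x).PosDef) → NrC k ε G g₁ → NrC k ε G g₂ →
      RigS ρ g₁ g₂ := by
    refine (isCompact_CoG (n := n) B hB).induction_on
      (p := fun S => ∃ (k : ℕ) (ε : ℝ), 0 < ε ∧ ∀ G ∈ S, ∀ g₁ g₂ : MF n, SmM g₁ →
      SmM g₂ → (∀ x, (g₁ x).PosDef) → (∀ x, (g₂ x).PosDef) → NrC k ε G g₁ → NrC k ε G g₂ →
      RigS ρ g₁ g₂) ⟨0, 1, one_pos, fun G hG => absurd hG (notMem_empty _)⟩ ?_ ?_ ?_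
    · rintro s t hst ⟨k, ε, he, h⟩
      exact ⟨k, ε, he, fun G hG => h G (hst hG)⟩
    · rintro s t ⟨k, ε, he, h⟩ ⟨k', ε', he', h'⟩
      refine ⟨max k k', min ε ε', lt_min he he', fun G hG g₁ g₂ s₁ s₂ p₁ p₂ n₁ n₂ => ?_⟩
      rcases hG with hG | hG
      · exact h G hG g₁ g₂ s₁ s₂ p₁ p₂
          (NrC_move s₁ n₁ (le_max_left _ _) fun i j => by simp)
          (NrC_move s₂ n₂ (le_max_left _ _) fun i j => by simp)
      · exact h' G hG g₁ g₂ s₁ s₂ p₁ p₂
          (NrC_move s₁ n₁ (le_max_right _ _) fun i j => by simp)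
          (NrC_move s₂ n₂ (le_max_right _ _) fun i j => by simp)
    · intro G hG
      obtain ⟨k, ε, he, h⟩ := hLC n hn ρ hρ G hG.1
      refine ⟨{G' | ∀ i j, |G' i j - G i j| < ε / 2}, mem_nhdsWithin_of_mem_nhds ?_, k, ε / 2,
        half_pos he, fun G' hG' g₁ g₂ s₁ s₂ p₁ p₂ n₁ n₂ => ?_⟩
      · refine IsOpen.mem_nhds ?_ fun i j => by simpa using half_pos he
        rw [Set.ofPred_forall]
        refine isOpen_iInter_of_finite fun i => ?_
        rw [Set.ofPred_forall]
        exact isOpen_iInter_of_finite fun j =>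
          isOpen_lt ((continuous_id.matrix_elem i j).sub continuous_const).abs continuous_const
      · exact h g₁ g₂ s₁ s₂ p₁ p₂ (NrC_move s₁ n₁ le_rfl fun i j => by
            have := (hG' i j).le
            linarith)
          (NrC_move s₂ n₂ le_rfl fun i j => by
            have := (hG' i j).le
            linarith)
  exact key

end Vale.Agent.P088.HY.H647
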