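import Vale.Agent.P088.R2.H349.J.Spec

/-!
# P088, row T2: assembly
-/

open MeasureTheory Set Filter Topology
open scoped ContDiff Matrix

set_option linter.all false

noncomputable section

namespace Vale.Agent.P088.HY.H647

open Vale.Agent.P088.LR

namespace T2

variable {n N : ℕ}

theorem continuous_sq : Continuous (sq : V n → ℝ) := by
  unfold sq
  fun_prop

theorem Cl_mono {k l : ℕ} {ε δ : ℝ} {f : V n → ℝ} (h : Cl k ε f) (hl : l ≤ k) (he : ε ≤ δ) :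
    Cl l δ f := fun m hm x => (h m (hm.trans hl) x).trans he

/-- A smooth function which is equal to a function with bounded derivatives off a ball has bounded
derivatives. -/
theorem cl_of_off {f f₀ : V n → ℝ} (hf : ContDiff ℝ ∞ f) {K : ℕ} {M : ℝ} (h0 : Cl K M f₀)
    (h : ∀ x ∉ Bs n (3 / 4), f x = f₀ x) : ∃ M', Cl K M' f := by
  have hc : ∀ l : ℕ, ∃ C, ∀ x ∈ Metric.closedBall (0 : V n) 1, ‖iteratedFDeriv ℝ l f x‖ ≤ C := by
    intro l
    have h1 : Continuous fun x => iteratedFDeriv ℝ l f x :=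
      hf.continuous_iteratedFDeriv (by exact_mod_cast le_top)
    exact (isCompact_closedBall (0 : V n) 1).exists_bound_of_continuousOn h1.continuousOn
  choose C hC using hc
  refine ⟨max M (∑ l ∈ Finset.range (K + 1), max (C l) 0), fun l hl x => ?_⟩
  by_cases hx : (3 / 4) ^ 2 < sq x
  · have h2 : f =ᶠ[𝓝 x] f₀ := by
      have h3 : ∀ᶠ y in 𝓝 x, (3 / 4) ^ 2 < sq y :=
        (isOpen_lt continuous_const continuous_sq).mem_nhds hx
      exact h3.mono fun y hy => h y fun h4 => absurd (show sq y < (3 / 4) ^ 2 from h4)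
        (not_lt.2 hy.le)
    have h5 : iteratedFDeriv ℝ l f x = iteratedFDeriv ℝ l f₀ x :=
      (h2.iteratedFDeriv ℝ l).self_of_nhds
    rw [h5]
    exact (h0 l hl x).trans (le_max_left _ _)
  · push Not at hx
    have h6 : x ∈ Metric.closedBall (0 : V n) 1 := by
      rw [mem_closedBall_zero_iff, pi_norm_le_iff_of_nonneg zero_le_one]
      intro j
      have h7 : x j ^ 2 ≤ sq x := Finset.single_le_sum (f := fun j => x j ^ 2)
        (fun _ _ => sq_nonneg _) (Finset.mem_univ j)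
      rw [Real.norm_eq_abs, abs_le]
      constructor <;> nlinarith
    have h8 : max (C l) 0 ≤ ∑ l ∈ Finset.range (K + 1), max (C l) 0 :=
      Finset.single_le_sum (f := fun l => max (C l) 0) (fun _ _ => le_max_right _ _)
        (Finset.mem_range.2 (by omega))
    exact ((hC l x h6).trans (le_max_left _ _)).trans (h8.trans (le_max_right _ _))

theorem contDiff_mul {X Y : Mx n N} (hX : ∀ p q, ContDiff ℝ ∞ (fun x => X x p q))
    (hY : ∀ p q, ContDiff ℝ ∞ (fun x => Y x p q)) (p q : Fin N) :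
    ContDiff ℝ ∞ (fun x => (X x * Y x) p q) := by
  simp only [Matrix.mul_apply]
  exact ContDiff.sum fun r _ => (hX p r).mul (hY r q)

theorem qok_gauge {K : ℕ} {M : ℝ} {A₁ A₂ : Cn' n N} {Q G : Mx n N} (hQ : QOk K M Q)
    (g : Gau A₁ A₂ G) : ∃ M', 0 < M' ∧ QOk K M' (fun x => (G x)ᵀ * Q x * G x) := by
  have hsm : ∀ p q, ContDiff ℝ ∞ (fun x => ((G x)ᵀ * Q x * G x) p q) :=
    contDiff_mul (contDiff_mul (X := fun x => (G x)ᵀ) (fun p q => g.sm q p) hQ.sm) g.sm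
  have h : ∀ p q, ∃ M', Cl K M' (fun x => ((G x)ᵀ * Q x * G x) p q) := fun p q =>
    cl_of_off (hsm p q) (hQ.bd p q) fun x hx => by
      simp only [g.z x hx, Matrix.transpose_one, one_mul, mul_one]
  choose C hC using h
  refine ⟨1 + ∑ p, ∑ q, |C p q|, by positivity, ⟨hsm, fun x => ?_, fun p q => ?_⟩⟩
  · rw [Matrix.transpose_mul, Matrix.transpose_mul, Matrix.transpose_transpose, hQ.sy, mul_assoc]
  · refine Cl_mono (hC p q) le_rfl ?_
    have h1 : |C p q| ≤ ∑ q, |C p q| := Finset.single_le_sum (f := fun q => |C p q|)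
      (fun _ _ => abs_nonneg _) (Finset.mem_univ q)
    have h2 : ∑ q, |C p q| ≤ ∑ p, ∑ q, |C p q| := Finset.single_le_sum
      (f := fun p => ∑ q, |C p q|) (fun _ _ => Finset.sum_nonneg fun _ _ => abs_nonneg _)
      (Finset.mem_univ p)
    linarith [le_abs_self (C p q)]

end T2

open T2

/-- Row T2. -/
theorem rowT2 : RowT2A → RowT2G → RowT2B → RowT2 := by
  intro hA hG hB n N hn
  obtain ⟨K1, ε1, he1, H1⟩ := hA n N hn
  obtain ⟨K2, ε2, he2, H2⟩ := hB n N hn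
  refine ⟨max K1 K2, min (min ε1 ε2) 1, lt_min (lt_min he1 he2) one_pos,
    fun M hM s A₁ A₂ Q₁ Q₂ hs hA₁ hA₂ hQ₁ hQ₂ hAz hQz hId => ?_⟩
  have l1 : min (min ε1 ε2) 1 ≤ ε1 := (min_le_left _ _).trans (min_le_left _ _)
  have l2 : min (min ε1 ε2) 1 ≤ ε2 := (min_le_left _ _).trans (min_le_right _ _)
  have l3 : min (min ε1 ε2) 1 ≤ 1 := min_le_right _ _
  have aok : ∀ {A : Cn' n N} {K : ℕ} {ε : ℝ}, AOk (max K1 K2) (min (min ε1 ε2) 1) A →
      K ≤ max K1 K2 → min (min ε1 ε2) 1 ≤ ε → AOk K ε A :=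
    fun h hK hε => ⟨h.sm, h.sk, fun l p q => T2.Cl_mono (h.bd l p q) hK hε⟩
  have qok : ∀ {Q : Mx n N} {K : ℕ}, QOk (max K1 K2) M Q → K ≤ max K1 K2 → QOk K M Q :=
    fun h hK => ⟨h.sm, h.sy, fun p q => T2.Cl_mono (h.bd p q) hK le_rfl⟩
  have tsk : ∀ {K : ℕ} {ε : ℝ}, K ≤ max K1 K2 → min (min ε1 ε2) 1 ≤ ε → TS n K ε s :=
    fun hK hε => ⟨hs.sm, hs.sy, fun i j => T2.Cl_mono (hs.cl i j) hK hε, hs.dv⟩
  obtain ⟨G, g⟩ := H1 M hM s A₁ A₂ Q₁ Q₂ (tsk (le_max_left _ _) l1) (aok hA₁ (le_max_left _ _) l1)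
    (aok hA₂ (le_max_left _ _) l1) (qok hQ₁ (le_max_left _ _)) (qok hQ₂ (le_max_left _ _)) hAz hQz
    hId
  have h3 := hG n N s A₁ A₂ Q₁ Q₂ G hs.sm hs.sy (aok hA₁ (Nat.zero_le _) l3)
    (aok hA₂ (Nat.zero_le _) l3) hQ₁.sm hQ₂.sm hQ₁.sy hQ₂.sy g hAz hQz hId
  obtain ⟨M', hM', hQ'⟩ := qok_gauge (qok hQ₁ (le_max_right K1 K2)) g
  have h4 := H2 (max M M') (lt_max_of_lt_left hM) s A₂ (fun x => (G x)ᵀ * Q₁ x * G x) Q₂
    (tsk (le_max_right _ _) l2) (aok hA₂ (le_max_right _ _) l2)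
    ⟨hQ'.sm, hQ'.sy, fun p q => T2.Cl_mono (hQ'.bd p q) le_rfl (le_max_right _ _)⟩
    ⟨hQ₂.sm, hQ₂.sy, fun p q => T2.Cl_mono (hQ₂.bd p q) (le_max_right _ _) (le_max_left _ _)⟩
    (fun x hx => by
      rw [hQz x hx]
      simp only [g.z x hx, Matrix.transpose_one, one_mul, mul_one]) h3
  refine ⟨G, g, fun x => ?_⟩
  have h5 : (G x)ᵀ * Q₁ x * G x = Q₂ x := h4 x
  rw [← h5, ← mul_assoc, ← mul_assoc, g.o, one_mul]

end Vale.Agent.P088.HY.H647
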